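/-
Sphere isometries of `C(K, E)` (helper34), first part: the localization lemma.
If `z ↦ P z` is nonexpansive, and `‖P z s + z s‖ = 2` whenever `z` has a unique peak at `s`, then
`P z s = z s`: Theorem A on the unit sphere of `E` for the test functions
`(1 - φ) (1 - η) z + φ a`, `a` in the unit sphere of `E`, `φ` a bump at `s`, and a line through
`z s` and `P z s`.
-/
import Vale.Agent.Lib.P084.Inf.Cofacial

namespace Vale.Agent.Lib.P084.CKE

open Vale.Agent.Lib.P084.UC Vale.Agent.Lib.P084.Inf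

variable {K E : Type*} [MetricSpace K] [CompactSpace K] [NormedAddCommGroup E] [NormedSpace ℝ E]

/-- The supremum norm is attained. -/
theorem exists_peak [Nonempty K] (x : C(K, E)) : ∃ r, ‖x r‖ = ‖x‖ := by
  obtain ⟨r, -, hr⟩ := isCompact_univ.exists_isMaxOn Set.univ_nonempty
    (x.continuous.norm.continuousOn)
  refine ⟨r, le_antisymm (x.norm_coe_le_norm r) ?_⟩
  exact (ContinuousMap.norm_le _ (norm_nonneg _)).2 (fun a => isMaxOn_iff.1 hr a (Set.mem_univ a))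

omit [MetricSpace K] [CompactSpace K] in
/-- A point at least as close as `b` to all unit vectors, `‖b‖ ≤ 1`, is `b`. -/
theorem eq_of_closer {b c : E} (hb : ‖b‖ ≤ 1) (h : ∀ a : E, ‖a‖ = 1 → ‖c - a‖ ≤ ‖b - a‖) :
    c = b := by
  by_contra hne
  have hd : 0 < ‖b - c‖ := norm_pos_iff.2 (sub_ne_zero.2 (Ne.symm hne))
  let F : ℝ → ℝ := fun τ => ‖b + τ • (b - c)‖
  have hF : Continuous F := by fun_prop
  have h0 : F 0 ≤ 1 := by simpa [F] using hb
  obtain ⟨T, hTdef⟩ : ∃ T : ℝ, T = (1 + ‖b‖) / ‖b - c‖ := ⟨_, rfl⟩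
  have hT : 0 ≤ T := by rw [hTdef]; positivity
  have h1 : 1 ≤ F T := by
    have h3 := norm_sub_le (b + T • (b - c)) b
    have h4 : b + T • (b - c) - b = T • (b - c) := by abel
    rw [h4, norm_smul, Real.norm_eq_abs, abs_of_nonneg hT, hTdef, div_mul_cancel₀ _ hd.ne'] at h3
    show 1 ≤ ‖b + T • (b - c)‖
    rw [hTdef]
    linarith
  obtain ⟨τ, hτ, hFτ⟩ := intermediate_value_Icc hT hF.continuousOn ⟨h0, h1⟩
  have hτ0 : 0 ≤ τ := hτ.1
  have h2 := h (b + τ • (b - c)) hFτ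
  have e1 : c - (b + τ • (b - c)) = (-(1 + τ)) • (b - c) := by module
  have e2 : b - (b + τ • (b - c)) = (-τ) • (b - c) := by module
  rw [e1, e2, norm_smul, norm_smul, Real.norm_eq_abs, Real.norm_eq_abs, abs_neg, abs_neg,
    abs_of_nonneg (by linarith), abs_of_nonneg hτ0] at h2
  nlinarith

/-- A bump at `s`. -/
noncomputable def bump (s : K) (δ : ℝ) (r : K) : ℝ := max 0 (1 - dist r s / δ)

omit [CompactSpace K] in
theorem bump_cont (s : K) (δ : ℝ) : Continuous (bump s δ) := by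
  unfold bump
  fun_prop

omit [CompactSpace K] in
theorem bump_nonneg (s : K) (δ : ℝ) (r : K) : 0 ≤ bump s δ r := le_max_left _ _

omit [CompactSpace K] in
theorem bump_le_one (s : K) {δ : ℝ} (hδ : 0 < δ) (r : K) : bump s δ r ≤ 1 := by
  unfold bump
  refine max_le zero_le_one ?_
  have : 0 ≤ dist r s / δ := by positivity
  linarith

omit [CompactSpace K] in
theorem bump_self (s : K) {δ : ℝ} (hδ : 0 < δ) : bump s δ s = 1 := by
  simp [bump]

omit [CompactSpace K] in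
theorem bump_lt_one (s : K) {δ : ℝ} (hδ : 0 < δ) {r : K} (hr : r ≠ s) : bump s δ r < 1 := by
  unfold bump
  refine max_lt zero_lt_one ?_
  have : 0 < dist r s / δ := div_pos (dist_pos.2 hr) hδ
  linarith

omit [CompactSpace K] in
theorem bump_eq_zero (s : K) {δ : ℝ} (hδ : 0 < δ) {r : K} (hr : δ ≤ dist r s) :
    bump s δ r = 0 := by
  unfold bump
  refine max_eq_left ?_
  have : 1 ≤ dist r s / δ := (one_le_div hδ).2 hr
  linarith

/-- The test functions. -/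
noncomputable def testFn (z : C(K, E)) (s : K) (δ η : ℝ) (a : E) : C(K, E) :=
  ⟨fun r => (1 - bump s δ r) • ((1 - η) • z r) + bump s δ r • a, by
    have := bump_cont s δ
    fun_prop⟩

theorem testFn_apply (z : C(K, E)) (s : K) (δ η : ℝ) (a : E) (r : K) :
    testFn z s δ η a r = (1 - bump s δ r) • ((1 - η) • z r) + bump s δ r • a := rfl

theorem test_self (z : C(K, E)) (s : K) {δ : ℝ} (hδ : 0 < δ) (η : ℝ) (a : E) :
    testFn z s δ η a s = a := by
  rw [testFn_apply, bump_self s hδ]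
  simp

theorem test_far (z : C(K, E)) (s : K) {δ : ℝ} (hδ : 0 < δ) (η : ℝ) (a : E) {r : K}
    (hr : δ ≤ dist r s) : testFn z s δ η a r = (1 - η) • z r := by
  rw [testFn_apply, bump_eq_zero s hδ hr]
  simp

theorem norm_test_le (z : C(K, E)) (s : K) {δ η : ℝ} (hδ : 0 < δ) (hη1 : η ≤ 1) (hz : ‖z‖ ≤ 1)
    {a : E} (ha : ‖a‖ = 1) (r : K) :
    ‖testFn z s δ η a r‖ ≤ 1 - (1 - bump s δ r) * η := by
  rw [testFn_apply]
  have h0 := bump_nonneg s δ r
  have h1 := bump_le_one s hδ r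
  have h2 : ‖z r‖ ≤ 1 := (z.norm_coe_le_norm r).trans hz
  have h3 : ‖(1 - bump s δ r) • ((1 - η) • z r)‖ ≤ (1 - bump s δ r) * (1 - η) := by
    rw [norm_smul, norm_smul, Real.norm_eq_abs, Real.norm_eq_abs, abs_of_nonneg (by linarith),
      abs_of_nonneg (by linarith)]
    have h4 : 0 ≤ (1 - bump s δ r) * (1 - η) := mul_nonneg (by linarith) (by linarith)
    nlinarith
  have h4 : ‖bump s δ r • a‖ = bump s δ r := by
    rw [norm_smul, ha, mul_one, Real.norm_eq_abs, abs_of_nonneg h0]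
  have h5 := norm_add_le ((1 - bump s δ r) • ((1 - η) • z r)) (bump s δ r • a)
  rw [h4] at h5
  nlinarith

theorem test_norm (z : C(K, E)) (s : K) {δ η : ℝ} (hδ : 0 < δ) (hη0 : 0 < η) (hη1 : η ≤ 1)
    (hz : ‖z‖ ≤ 1) {a : E} (ha : ‖a‖ = 1) : ‖testFn z s δ η a‖ = 1 := by
  refine le_antisymm ((ContinuousMap.norm_le _ zero_le_one).2 fun r => ?_) ?_
  · have h1 := norm_test_le z s hδ hη1 hz ha r
    have h2 : 0 ≤ (1 - bump s δ r) * η :=
      mul_nonneg (by linarith [bump_le_one s hδ r]) hη0.le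
    linarith
  · have h1 := (testFn z s δ η a).norm_coe_le_norm s
    rwa [test_self z s hδ, ha] at h1

theorem test_lt (z : C(K, E)) (s : K) {δ η : ℝ} (hδ : 0 < δ) (hη0 : 0 < η) (hη1 : η ≤ 1)
    (hz : ‖z‖ ≤ 1) {a : E} (ha : ‖a‖ = 1) {r : K} (hr : r ≠ s) : ‖testFn z s δ η a r‖ < 1 := by
  have h1 := norm_test_le z s hδ hη1 hz ha r
  have h2 : 0 < (1 - bump s δ r) * η :=
    mul_pos (by linarith [bump_lt_one s hδ hr]) hη0
  linarith

theorem test_sub (z : C(K, E)) (s : K) {δ : ℝ} (hδ : 0 < δ) (η : ℝ) (a b : E) :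
    ‖testFn z s δ η a - testFn z s δ η b‖ ≤ ‖a - b‖ := by
  refine (ContinuousMap.norm_le _ (norm_nonneg _)).2 fun r => ?_
  have h1 : (testFn z s δ η a - testFn z s δ η b) r = bump s δ r • (a - b) := by
    rw [ContinuousMap.sub_apply, testFn_apply, testFn_apply, smul_sub]
    abel
  rw [h1, norm_smul, Real.norm_eq_abs, abs_of_nonneg (bump_nonneg s δ r)]
  have h2 := bump_le_one s hδ r
  have h3 := norm_nonneg (a - b)
  nlinarith

theorem test_close (z : C(K, E)) (s : K) {δ η ε : ℝ} (hδ : 0 < δ) (hη0 : 0 ≤ η) (hη1 : η ≤ 1)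
    (hz : ‖z‖ ≤ 1) (a : E) (hε : 0 ≤ ε) (hc : ∀ r, dist r s < δ → ‖z r - z s‖ ≤ ε) :
    ‖z - testFn z s δ η a‖ ≤ ‖z s - a‖ + ε + η := by
  refine (ContinuousMap.norm_le _ (by positivity)).2 fun r => ?_
  have h0 := bump_nonneg s δ r
  have h1 := bump_le_one s hδ r
  have e1 : (z - testFn z s δ η a) r =
      (1 - bump s δ r) • (η • z r) + bump s δ r • (z r - a) := by
    rw [ContinuousMap.sub_apply, testFn_apply]
    module
  rw [e1]
  have h2 : ‖z r‖ ≤ 1 := (z.norm_coe_le_norm r).trans hz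
  have h3 : ‖(1 - bump s δ r) • (η • z r)‖ ≤ η := by
    rw [norm_smul, norm_smul, Real.norm_eq_abs, Real.norm_eq_abs, abs_of_nonneg (by linarith),
      abs_of_nonneg hη0]
    have h4 : η * ‖z r‖ ≤ η := by nlinarith
    have h5 : 0 ≤ η * ‖z r‖ := by positivity
    nlinarith
  have h4 : ‖bump s δ r • (z r - a)‖ ≤ ‖z s - a‖ + ε := by
    rw [norm_smul, Real.norm_eq_abs, abs_of_nonneg h0]
    by_cases hr : dist r s < δ
    · have h5 := hc r hr
      have h6 : ‖z r - a‖ ≤ ‖z r - z s‖ + ‖z s - a‖ := norm_sub_le_norm_sub_add_norm_sub _ _ _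
      have h7 : 0 ≤ ‖z r - a‖ := norm_nonneg _
      nlinarith
    · rw [bump_eq_zero s hδ (not_lt.1 hr), zero_mul]
      positivity
  exact (norm_add_le _ _).trans (by linarith)

/-- **Localization.** -/
theorem loc {A : C(K, E) → Prop} {P : C(K, E) → C(K, E)} {s : K}
    (hA1 : ∀ z, A z → ‖z‖ ≤ 1)
    (hbd : ∀ z, A z → ‖P z‖ ≤ 1)
    (hlip : ∀ z z', A z → A z' → ‖P z - P z'‖ ≤ ‖z - z'‖)
    (hpk : ∀ z, A z → ‖z s‖ = 1 → (∀ r, r ≠ s → ‖z r‖ < 1) → ‖P z s + z s‖ = 2)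
    {z : C(K, E)} (hz : A z) {δ₀ : ℝ} (hδ₀ : 0 < δ₀)
    (htest : ∀ δ η a, 0 < δ → δ ≤ δ₀ → 0 < η → η ≤ 1 → ‖a‖ = 1 → A (testFn z s δ η a)) :
    P z s = z s := by
  have hz1 := hA1 z hz
  refine eq_of_closer ((z.norm_coe_le_norm s).trans hz1) fun a ha => ?_
  refine le_of_forall_pos_le_add fun ε hε => ?_
  obtain ⟨δ₁, hδ₁, h1⟩ := Metric.continuous_iff.1 z.continuous s (ε / 2) (by linarith)
  obtain ⟨δ, hδdef⟩ : ∃ δ, δ = min δ₀ δ₁ := ⟨_, rfl⟩
  obtain ⟨η, hηdef⟩ : ∃ η, η = min (ε / 2) 1 := ⟨_, rfl⟩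
  have hδ : 0 < δ := by rw [hδdef]; exact lt_min hδ₀ hδ₁
  have hη : 0 < η := by rw [hηdef]; exact lt_min (by linarith) one_pos
  have hη1 : η ≤ 1 := by rw [hηdef]; exact min_le_right _ _
  have hη2 : η ≤ ε / 2 := by rw [hηdef]; exact min_le_left _ _
  have hδ0 : δ ≤ δ₀ := by rw [hδdef]; exact min_le_left _ _
  have hδ1 : δ ≤ δ₁ := by rw [hδdef]; exact min_le_right _ _
  let Ξ : E → E := fun b => P (testFn z s δ η b) s
  have hT : ∀ b, ‖b‖ = 1 → A (testFn z s δ η b) := fun b hb => htest _ _ _ hδ hδ0 hη hη1 hb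
  have hpkb : ∀ b, ‖b‖ = 1 → ‖Ξ b + b‖ = 2 := by
    intro b hb
    have h2 := hpk _ (hT b hb) (by rw [test_self z s hδ]; exact hb)
      (fun r hr => test_lt z s hδ hη hη1 hz1 hb hr)
    rwa [test_self z s hδ] at h2
  have h1' : ∀ b, ‖b‖ = 1 → ‖Ξ b‖ = 1 := by
    intro b hb
    have h2 : ‖Ξ b‖ ≤ 1 := ((P _).norm_coe_le_norm s).trans (hbd _ (hT b hb))
    have h3 := norm_add_le (Ξ b) b
    rw [hpkb b hb, hb] at h3
    linarith
  have h2' : ∀ b c, ‖b‖ = 1 → ‖c‖ = 1 → ‖Ξ b - Ξ c‖ ≤ ‖b - c‖ := by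
    intro b c hb hc
    calc ‖Ξ b - Ξ c‖ = ‖(P (testFn z s δ η b) - P (testFn z s δ η c)) s‖ := rfl
      _ ≤ ‖P (testFn z s δ η b) - P (testFn z s δ η c)‖ := ContinuousMap.norm_coe_le_norm _ _
      _ ≤ ‖testFn z s δ η b - testFn z s δ η c‖ := hlip _ _ (hT b hb) (hT c hc)
      _ ≤ ‖b - c‖ := test_sub z s hδ η b c
  have h3' : ∀ b, ‖b‖ = 1 → ‖b + Ξ b‖ = 2 := by
    intro b hb
    rw [add_comm]
    exact hpkb b hb
  have hfix : Ξ a = a := eq_self_of_cofacial h1' h2' h3' ha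
  have hfix' : P (testFn z s δ η a) s = a := hfix
  calc ‖P z s - a‖ = ‖(P z - P (testFn z s δ η a)) s‖ := by
        rw [ContinuousMap.sub_apply, hfix']
    _ ≤ ‖P z - P (testFn z s δ η a)‖ := ContinuousMap.norm_coe_le_norm _ _
    _ ≤ ‖z - testFn z s δ η a‖ := hlip _ _ hz (hT a ha)
    _ ≤ ‖z s - a‖ + ε / 2 + η := by
        refine test_close z s hδ hη.le hη1 hz1 a (by linarith) fun r hr => ?_
        have h2 := h1 r (lt_of_lt_of_le hr hδ1)
        rw [dist_eq_norm] at h2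
        exact h2.le
    _ ≤ ‖z s - a‖ + ε := by linarith

end Vale.Agent.Lib.P084.CKE
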