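/-
Sphere isometries of `C(K, E)` (helper34), second part: on the functions vanishing on a fixed
nonempty open set the radial extension of a sphere isometry is linear.
-/
import Vale.Agent.Lib.P084.CKE.Basic

namespace Vale.Agent.Lib.P084.CKE

open Vale.Agent.Lib.P084.UC Vale.Agent.Lib.P084.Inf

variable {K E Y : Type*} [MetricSpace K] [CompactSpace K] [NormedAddCommGroup E] [NormedSpace ℝ E]
  [NormedAddCommGroup Y] [NormedSpace ℝ Y]

/-- Cofacial unit vectors span a copy of `l_1^2` on the positive cone. -/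
theorem cof_combo {W : Type*} [NormedAddCommGroup W] [NormedSpace ℝ W] {a b : W} (ha : ‖a‖ = 1)
    (hb : ‖b‖ = 1) (hab : ‖a + b‖ = 2) {p q : ℝ} (hp : 0 ≤ p) (hq : 0 ≤ q) :
    ‖p • a + q • b‖ = p + q := by
  have hup : ‖p • a + q • b‖ ≤ p + q := by
    refine (norm_add_le _ _).trans ?_
    rw [norm_smul, norm_smul, ha, hb, mul_one, mul_one, Real.norm_eq_abs, Real.norm_eq_abs,
      abs_of_nonneg hp, abs_of_nonneg hq]
  refine le_antisymm hup ?_
  rcases le_total q p with h | h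
  · have e : p • (a + b) = (p • a + q • b) + (p - q) • b := by module
    have h1 := norm_add_le (p • a + q • b) ((p - q) • b)
    rw [← e, norm_smul, hab, norm_smul, hb, mul_one, Real.norm_eq_abs, Real.norm_eq_abs,
      abs_of_nonneg hp, abs_of_nonneg (by linarith)] at h1
    linarith
  · have e : q • (a + b) = (p • a + q • b) + (q - p) • a := by module
    have h1 := norm_add_le (p • a + q • b) ((q - p) • a)
    rw [← e, norm_smul, hab, norm_smul, ha, mul_one, Real.norm_eq_abs, Real.norm_eq_abs,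
      abs_of_nonneg hq, abs_of_nonneg (by linarith)] at h1
    linarith

/-- A surjective sphere isometry of `C(K, E)` with its inverse. -/
structure Ctx (f : C(K, E) → Y) (g : Y → C(K, E)) : Prop where
  hf : IsSphereIso f
  hg : IsSphereIso g
  gf : ∀ x, ‖x‖ = 1 → g (f x) = x
  fg : ∀ y, ‖y‖ = 1 → f (g y) = y

variable {f : C(K, E) → Y} {g : Y → C(K, E)}

namespace Ctx

theorem norm_add (D : Ctx f g) {a b : C(K, E)} (ha : ‖a‖ = 1) (hb : ‖b‖ = 1) :
    ‖f a + f b‖ = ‖a + b‖ := by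
  have h := D.hf.iso a (-b) ha (by rwa [norm_neg])
  rw [odd_of_isSphereIso D.hf hb, sub_neg_eq_add, sub_neg_eq_add] at h
  exact h

theorem norm_g_add (D : Ctx f g) {y : Y} (hy : ‖y‖ = 1) {x : C(K, E)} (hx : ‖x‖ = 1) :
    ‖g y + x‖ = ‖y + f x‖ := by
  have h := D.norm_add (D.hg.norm_eq y hy) hx
  rw [D.fg y hy] at h
  exact h.symm

theorem doubling' (D : Ctx f g) {x u : C(K, E)} (hx : ‖x‖ = 1) (hu : ‖u‖ = 1)
    (hxu : ‖x + u‖ = 1) : ‖f x + f x + f u‖ = ‖x + x + u‖ := by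
  have h := D.hf.doubling (x := x) (y := -u) hx (by rwa [norm_neg]) (by
    have e : -u - x = -(x + u) := by abel
    rw [e, norm_neg]
    exact hxu)
  rw [odd_of_isSphereIso D.hf hu] at h
  have e1 : f x + f x + f u = (2 : ℝ) • (f x - (1 / 2 : ℝ) • (- f u)) := by module
  have e2 : x + x + u = (2 : ℝ) • (x - (1 / 2 : ℝ) • (-u)) := by module
  rw [e1, e2, norm_smul, norm_smul, h]

end Ctx

theorem nonempty_of_unit {x : C(K, E)} (hx : ‖x‖ = 1) : Nonempty K := by
  by_contra h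
  rw [not_nonempty_iff] at h
  have h0 : x = 0 := by
    ext r
    exact (IsEmpty.false r).elim
  rw [h0, norm_zero] at hx
  exact zero_ne_one hx

theorem peak_two {p q : C(K, E)} {s : K} (hp : ‖p‖ ≤ 1) (hq : ∀ r, r ≠ s → ‖q r‖ < 1)
    (h : ‖p + q‖ = 2) : ‖p s + q s‖ = 2 := by
  haveI : Nonempty K := ⟨s⟩
  obtain ⟨r, hr⟩ := exists_peak (p + q)
  by_cases hrs : r = s
  · subst hrs
    rw [← h, ← hr]
    rfl
  · exfalso
    have h1 := hq r hrs
    have h2 := (p.norm_coe_le_norm r).trans hp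
    have h3 := norm_add_le (p r) (q r)
    rw [ContinuousMap.add_apply] at hr
    linarith

namespace Ctx

/-- The values of `g (f v + f u)` where `u` vanishes. -/
theorem triple (D : Ctx f g) {v u : C(K, E)} (hv : ‖v‖ = 1) (hu : ‖u‖ = 1) (hvu : ‖v + u‖ = 1)
    {s : K} {δ₀ : ℝ} (hδ₀ : 0 < δ₀) (hus : ∀ r, dist r s < δ₀ → u r = 0) :
    g (f v + f u) s = v s := by
  have hzy : ∀ z, ‖z‖ = 1 → ‖z + u‖ = 1 → ‖f z + f u‖ = 1 := fun z h1 h2 => by
    rw [D.norm_add h1 hu, h2]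
  refine loc (A := fun z => ‖z‖ = 1 ∧ ‖z + u‖ = 1) (P := fun z => g (f z + f u)) (s := s)
    (fun z h => h.1.le) (fun z h => (D.hg.norm_eq _ (hzy z h.1 h.2)).le) ?_ ?_ (z := v)
    ⟨hv, hvu⟩ hδ₀ ?_
  · intro z z' h h'
    have h1 := D.hg.iso _ _ (hzy z h.1 h.2) (hzy z' h'.1 h'.2)
    show ‖g (f z + f u) - g (f z' + f u)‖ ≤ ‖z - z'‖
    rw [h1, add_sub_add_right_eq_sub, D.hf.iso z z' h.1 h'.1]
  · intro z h hs hr
    refine peak_two (D.hg.norm_eq _ (hzy z h.1 h.2)).le hr ?_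
    rw [D.norm_g_add (hzy z h.1 h.2) h.1]
    have e : f z + f u + f z = f z + f z + f u := by abel
    rw [e, D.doubling' h.1 hu h.2]
    refine le_antisymm ?_ ?_
    · have e2 : z + z + u = z + (z + u) := by abel
      have h1 := norm_add_le z (z + u)
      rw [h.1, h.2] at h1
      rw [e2]
      linarith
    · have h1 := (z + z + u).norm_coe_le_norm s
      have h2 : (z + z + u) s = (2 : ℝ) • z s := by
        simp [hus s (by simpa using hδ₀), two_smul]
      rw [h2, norm_smul, hs] at h1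
      simpa using h1
  · intro δ η a hδ hδ0 hη hη1 ha
    have htn := test_norm v s hδ hη hη1 hv.le ha
    refine ⟨htn, le_antisymm ?_ ?_⟩
    · refine (ContinuousMap.norm_le _ zero_le_one).2 fun r => ?_
      by_cases hr : dist r s < δ
      · have h0 := hus r (lt_of_lt_of_le hr hδ0)
        rw [ContinuousMap.add_apply, h0, add_zero]
        exact (ContinuousMap.norm_coe_le_norm _ r).trans htn.le
      · rw [ContinuousMap.add_apply, test_far v s hδ η a (not_lt.1 hr)]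
        have e : (1 - η) • v r + u r = (1 - η) • (v + u) r + η • u r := by
          rw [ContinuousMap.add_apply]
          module
        rw [e]
        refine (norm_add_le _ _).trans ?_
        rw [norm_smul, norm_smul, Real.norm_eq_abs, Real.norm_eq_abs,
          abs_of_nonneg (by linarith), abs_of_nonneg hη.le]
        have h1 : ‖(v + u) r‖ ≤ 1 := ((v + u).norm_coe_le_norm r).trans hvu.le
        have h2 : ‖u r‖ ≤ 1 := (u.norm_coe_le_norm r).trans hu.le
        have h3 : 0 ≤ 1 - η := by linarith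
        nlinarith
    · have h1 := (testFn v s δ η a + u).norm_coe_le_norm s
      have h2 : (testFn v s δ η a + u) s = a := by
        rw [ContinuousMap.add_apply, test_self v s hδ, hus s (by simpa using hδ₀), add_zero]
      rw [h2, ha] at h1
      exact h1

end Ctx

/-- The functions vanishing on `O`. -/
def Wsub (E : Type*) [NormedAddCommGroup E] [NormedSpace ℝ E] (O : Set K) :
    Submodule ℝ C(K, E) where
  carrier := {x | ∀ r ∈ O, x r = 0}
  add_mem' := by
    intro a b ha hb r hr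
    rw [ContinuousMap.add_apply, ha r hr, hb r hr, add_zero]
  zero_mem' := fun _ _ => rfl
  smul_mem' := by
    intro c x hx r hr
    rw [ContinuousMap.smul_apply, hx r hr, smul_zero]

omit [CompactSpace K] in
theorem mem_Wsub {O : Set K} {x : C(K, E)} : x ∈ Wsub E O ↔ ∀ r ∈ O, x r = 0 := Iff.rfl

theorem norm_add_disj {O : Set K} {z w : C(K, E)} (hz : ∀ r, r ∉ O → z r = 0)
    (hw : ∀ r ∈ O, w r = 0) : ‖z + w‖ = max ‖z‖ ‖w‖ := by
  refine le_antisymm ((ContinuousMap.norm_le _ (by positivity)).2 fun r => ?_) (max_le ?_ ?_)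
  · rw [ContinuousMap.add_apply]
    by_cases hr : r ∈ O
    · rw [hw r hr, add_zero]
      exact (z.norm_coe_le_norm r).trans (le_max_left _ _)
    · rw [hz r hr, zero_add]
      exact (w.norm_coe_le_norm r).trans (le_max_right _ _)
  · refine (ContinuousMap.norm_le _ (norm_nonneg _)).2 fun r => ?_
    by_cases hr : r ∈ O
    · have h1 := (z + w).norm_coe_le_norm r
      rwa [ContinuousMap.add_apply, hw r hr, add_zero] at h1
    · rw [hz r hr, norm_zero]
      exact norm_nonneg _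
  · refine (ContinuousMap.norm_le _ (norm_nonneg _)).2 fun r => ?_
    by_cases hr : r ∈ O
    · rw [hw r hr, norm_zero]
      exact norm_nonneg _
    · have h1 := (z + w).norm_coe_le_norm r
      rwa [ContinuousMap.add_apply, hz r hr, zero_add] at h1

/-- Localization on an open set. -/
theorem loc_O {O : Set K} (hO : IsOpen O) {P : C(K, E) → C(K, E)}
    (hbd : ∀ z, ‖z‖ = 1 → (∀ r, r ∉ O → z r = 0) → ‖P z‖ ≤ 1)
    (hlip : ∀ z z', ‖z‖ = 1 → (∀ r, r ∉ O → z r = 0) → ‖z'‖ = 1 → (∀ r, r ∉ O → z' r = 0) →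
      ‖P z - P z'‖ ≤ ‖z - z'‖)
    (hpk : ∀ z s, ‖z‖ = 1 → (∀ r, r ∉ O → z r = 0) → s ∈ O → ‖z s‖ = 1 →
      (∀ r, r ≠ s → ‖z r‖ < 1) → ‖P z s + z s‖ = 2)
    {z : C(K, E)} (hz : ‖z‖ = 1) (hzO : ∀ r, r ∉ O → z r = 0) {s : K} (hs : s ∈ O) :
    P z s = z s := by
  obtain ⟨δ₀, hδ₀, hball⟩ := Metric.isOpen_iff.1 hO s hs
  refine loc (A := fun z => ‖z‖ = 1 ∧ ∀ r, r ∉ O → z r = 0) (P := P) (s := s)
    (fun z h => h.1.le) (fun z h => hbd z h.1 h.2)
    (fun z z' h h' => hlip z z' h.1 h.2 h'.1 h'.2)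
    (fun z h h1 h2 => hpk z s h.1 h.2 hs h1 h2) (z := z) ⟨hz, hzO⟩ hδ₀ ?_
  intro δ η a hδ hδ0 hη hη1 ha
  refine ⟨test_norm z s hδ hη hη1 hz.le ha, fun r hr => ?_⟩
  have hfar : δ ≤ dist r s := by
    by_contra hcon
    exact hr (hball (Metric.mem_ball.2 (lt_of_lt_of_le (not_le.1 hcon) hδ0)))
  rw [test_far z s hδ η a hfar, hzO r hr, smul_zero]

namespace Ctx

/-- Basic norms for disjoint unit functions. -/
theorem disj_facts (D : Ctx f g) {O : Set K} {z w : C(K, E)} (hz : ‖z‖ = 1)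
    (hzO : ∀ r, r ∉ O → z r = 0) (hw : ‖w‖ = 1) (hwO : ∀ r ∈ O, w r = 0) :
    ‖z + w‖ = 1 ∧ ‖f z + f w‖ = 1 ∧ ‖f z + (f z + f w)‖ = 2 := by
  have h1 : ‖z + w‖ = 1 := by rw [norm_add_disj hzO hwO, hz, hw, max_self]
  refine ⟨h1, by rw [D.norm_add hz hw, h1], ?_⟩
  have e : f z + (f z + f w) = f z + f z + f w := by abel
  rw [e, D.doubling' hz hw h1]
  have h2 : ‖z + z‖ = 2 := by
    rw [← two_smul ℝ z, norm_smul, hz]
    norm_num
  have h3 := norm_add_disj (O := O) (z := z + z) (w := w)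
    (fun r hr => by rw [ContinuousMap.add_apply, hzO r hr, add_zero]) hwO
  rw [h3, h2, hw]
  norm_num

/-- The point `f z + t • f w` is a unit vector and it is cofacial with `f z`. -/
theorem y_facts (D : Ctx f g) {O : Set K} {z w : C(K, E)} (hz : ‖z‖ = 1)
    (hzO : ∀ r, r ∉ O → z r = 0) (hw : ‖w‖ = 1) (hwO : ∀ r ∈ O, w r = 0) {t : ℝ} (ht0 : 0 ≤ t)
    (ht1 : t ≤ 1) : ‖f z + t • f w‖ = 1 ∧ ‖f z + t • f w + f z‖ = 2 := by
  obtain ⟨-, h2, h3⟩ := D.disj_facts hz hzO hw hwO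
  have hfz := D.hf.norm_eq z hz
  constructor
  · have e : f z + t • f w = (1 - t) • f z + t • (f z + f w) := by module
    rw [e, cof_combo hfz h2 h3 (by linarith) ht0]
    ring
  · have e : f z + t • f w + f z = (2 - t) • f z + t • (f z + f w) := by module
    rw [e, cof_combo hfz h2 h3 (by linarith) ht0]
    ring

/-- `g (f z + t • f w)` agrees with `z` on `O`. -/
theorem radial_on (D : Ctx f g) {O : Set K} (hO : IsOpen O) {z w : C(K, E)} (hz : ‖z‖ = 1)
    (hzO : ∀ r, r ∉ O → z r = 0) (hw : ‖w‖ = 1) (hwO : ∀ r ∈ O, w r = 0) {t : ℝ} (ht0 : 0 ≤ t)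
    (ht1 : t ≤ 1) {s : K} (hs : s ∈ O) : g (f z + t • f w) s = z s := by
  refine loc_O hO (P := fun z => g (f z + t • f w)) ?_ ?_ ?_ hz hzO hs
  · intro z hz hzO
    exact (D.hg.norm_eq _ (D.y_facts hz hzO hw hwO ht0 ht1).1).le
  · intro z z' hz hzO hz' hzO'
    show ‖g (f z + t • f w) - g (f z' + t • f w)‖ ≤ ‖z - z'‖
    rw [D.hg.iso _ _ (D.y_facts hz hzO hw hwO ht0 ht1).1 (D.y_facts hz' hzO' hw hwO ht0 ht1).1,
      add_sub_add_right_eq_sub, D.hf.iso z z' hz hz']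
  · intro z s hz hzO _ _ hr
    obtain ⟨h1, h2⟩ := D.y_facts hz hzO hw hwO ht0 ht1
    refine peak_two (D.hg.norm_eq _ h1).le hr ?_
    rw [D.norm_g_add h1 hz, h2]

/-- Theorem A on the sphere of the functions vanishing on `O`. -/
theorem radial (D : Ctx f g) {O : Set K} (hO : IsOpen O) {z w : C(K, E)} (hz : ‖z‖ = 1)
    (hzO : ∀ r, r ∉ O → z r = 0) (hw : ‖w‖ = 1) (hwO : w ∈ Wsub E O) {t : ℝ} (ht0 : 0 < t)
    (ht1 : t ≤ 1) : g (f z + t • f w) = z + t • w := by
  classical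
  haveI : Nonempty K := nonempty_of_unit hz
  have ht0' : t ≠ 0 := ht0.ne'
  let Q : C(K, E) → C(K, E) := fun v => t⁻¹ • (g (f z + t • f v) - z)
  have hQapp : ∀ v, Q v = t⁻¹ • (g (f z + t • f v) - z) := fun v => rfl
  have hmem : ∀ v : C(K, E), ‖v‖ = 1 → v ∈ Wsub E O → Q v ∈ Wsub E O := by
    intro v hv hvO
    refine (Wsub E O).smul_mem _ fun r hr => ?_
    rw [ContinuousMap.sub_apply, D.radial_on hO hz hzO hv hvO ht0.le ht1 hr, sub_self]
  have hy : ∀ v : C(K, E), ‖v‖ = 1 → v ∈ Wsub E O → ‖f z + t • f v‖ = 1 :=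
    fun v hv hvO => (D.y_facts hz hzO hv hvO ht0.le ht1).1
  have hQn : ∀ v : C(K, E), ‖v‖ = 1 → v ∈ Wsub E O → ‖Q v‖ = 1 := by
    intro v hv hvO
    have h1 := D.hg.iso _ _ (hy v hv hvO) (D.hf.norm_eq z hz)
    rw [D.gf z hz, add_sub_cancel_left, norm_smul, D.hf.norm_eq v hv, mul_one, Real.norm_eq_abs,
      abs_of_pos ht0] at h1
    rw [hQapp, norm_smul, h1, norm_inv, Real.norm_eq_abs, abs_of_pos ht0, inv_mul_cancel₀ ht0']
  have hQl : ∀ v v' : C(K, E), ‖v‖ = 1 → v ∈ Wsub E O → ‖v'‖ = 1 → v' ∈ Wsub E O →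
      ‖Q v - Q v'‖ ≤ ‖v - v'‖ := by
    intro v v' hv hvO hv' hvO'
    have h1 := D.hg.iso _ _ (hy v hv hvO) (hy v' hv' hvO')
    have e1 : f z + t • f v - (f z + t • f v') = t • (f v - f v') := by module
    rw [e1, norm_smul, D.hf.iso v v' hv hv', Real.norm_eq_abs, abs_of_pos ht0] at h1
    have e2 : Q v - Q v' = t⁻¹ • (g (f z + t • f v) - g (f z + t • f v')) := by
      rw [hQapp, hQapp]
      module
    rw [e2, norm_smul, h1, norm_inv, Real.norm_eq_abs, abs_of_pos ht0, ← mul_assoc,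
      inv_mul_cancel₀ ht0', one_mul]
  have hQc : ∀ v : C(K, E), ‖v‖ = 1 → v ∈ Wsub E O → ‖v + Q v‖ = 2 := by
    intro v hv hvO
    obtain ⟨h1, h2, h3⟩ := D.disj_facts hz hzO hv hvO
    have hP1 := D.hg.norm_eq _ (hy v hv hvO)
    have hfv := D.hf.norm_eq v hv
    -- the norm of `P + v`
    have h4 : ‖g (f z + t • f v) + v‖ = 1 + t := by
      rw [D.norm_g_add (hy v hv hvO) hv]
      have h5 : ‖(f z + f v) + f v‖ = 2 := by
        have e : f z + f v + f v = f v + f v + f z := by abel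
        rw [e, D.doubling' hv hz (by rw [add_comm]; exact h1)]
        have h6 : ‖z + (v + v)‖ = max ‖z‖ ‖v + v‖ :=
          norm_add_disj hzO (fun r hr => by
            rw [ContinuousMap.add_apply, hvO r hr, add_zero])
        have h7 : ‖v + v‖ = 2 := by
          rw [← two_smul ℝ v, norm_smul, hv]
          norm_num
        have e2 : v + v + z = z + (v + v) := by abel
        rw [e2, h6, hz, h7]
        norm_num
      have e3 : f z + t • f v + f v = (1 : ℝ) • (f z + f v) + t • f v := by module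
      rw [e3, cof_combo h2 hfv h5 zero_le_one ht0.le]
    obtain ⟨r, hr⟩ := exists_peak (g (f z + t • f v) + v)
    rw [h4, ContinuousMap.add_apply] at hr
    have hrO : r ∉ O := by
      intro hrO
      rw [hvO r hrO, add_zero] at hr
      have h5 := ((g (f z + t • f v)).norm_coe_le_norm r).trans hP1.le
      linarith
    -- the lower bound
    have h6 : 1 + t ≤ ‖t • Q v + v‖ := by
      have e : t • Q v = g (f z + t • f v) - z := by
        rw [hQapp, smul_smul, mul_inv_cancel₀ ht0', one_smul]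
      have h7 := (t • Q v + v).norm_coe_le_norm r
      rw [ContinuousMap.add_apply, e, ContinuousMap.sub_apply, hzO r hrO, sub_zero, hr] at h7
      rw [e]
      exact h7
    have e5 : t • Q v + v = t • (v + Q v) + (1 - t) • v := by module
    have h8 := norm_add_le (t • (v + Q v)) ((1 - t) • v)
    rw [← e5, norm_smul, norm_smul, hv, mul_one, Real.norm_eq_abs, Real.norm_eq_abs,
      abs_of_pos ht0, abs_of_nonneg (by linarith)] at h8
    have h9 : t * 2 ≤ t * ‖v + Q v‖ := by linarith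
    have h10 := le_of_mul_le_mul_left h9 ht0
    have h11 := norm_add_le v (Q v)
    rw [hv, hQn v hv hvO] at h11
    linarith
  let Ξ : Wsub E O → Wsub E O := fun v =>
    if h : ‖(v : C(K, E))‖ = 1 then ⟨Q v, hmem v h v.2⟩ else 0
  have hΞ : ∀ v : Wsub E O, ‖(v : C(K, E))‖ = 1 → ((Ξ v : Wsub E O) : C(K, E)) = Q v := by
    intro v hv
    simp only [Ξ, dif_pos hv]
  have hc : ∀ v : Wsub E O, ‖v‖ = 1 → ‖(v : C(K, E))‖ = 1 := fun v h => h
  have h1 : ∀ v : Wsub E O, ‖v‖ = 1 → ‖Ξ v‖ = 1 := by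
    intro v hv
    show ‖((Ξ v : Wsub E O) : C(K, E))‖ = 1
    rw [hΞ v (hc v hv)]
    exact hQn v (hc v hv) v.2
  have h2 : ∀ v v' : Wsub E O, ‖v‖ = 1 → ‖v'‖ = 1 → ‖Ξ v - Ξ v'‖ ≤ ‖v - v'‖ := by
    intro v v' hv hv'
    show ‖((Ξ v : Wsub E O) : C(K, E)) - ((Ξ v' : Wsub E O) : C(K, E))‖ ≤
      ‖(v : C(K, E)) - (v' : C(K, E))‖
    rw [hΞ v (hc v hv), hΞ v' (hc v' hv')]
    exact hQl v v' (hc v hv) v.2 (hc v' hv') v'.2
  have h3 : ∀ v : Wsub E O, ‖v‖ = 1 → ‖v + Ξ v‖ = 2 := by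
    intro v hv
    show ‖(v : C(K, E)) + ((Ξ v : Wsub E O) : C(K, E))‖ = 2
    rw [hΞ v (hc v hv)]
    exact hQc v (hc v hv) v.2
  have hw' : ‖(⟨w, hwO⟩ : Wsub E O)‖ = 1 := hw
  have h4 := eq_self_of_cofacial h1 h2 h3 hw'
  have h5 : ((Ξ ⟨w, hwO⟩ : Wsub E O) : C(K, E)) = w := congrArg Subtype.val h4
  rw [hΞ ⟨w, hwO⟩ hw] at h5
  have h7 : Q w = t⁻¹ • (g (f z + t • f w) - z) := rfl
  have h8 : t • Q w = g (f z + t • f w) - z := by
    rw [h7, smul_smul, mul_inv_cancel₀ ht0', one_smul]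
  have h9 : Q w = w := h5
  rw [h9] at h8
  rw [h8]
  abel

end Ctx

end Vale.Agent.Lib.P084.CKE
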