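/-
Sphere isometries of `C(K, E)` (helper34), third part: the radial extension is linear on the
functions vanishing on a nonempty open set.
-/
import Vale.Agent.Lib.P084.CKE.Radial

namespace Vale.Agent.Lib.P084.CKE

open Vale.Agent.Lib.P084.UC Vale.Agent.Lib.P084.Inf

variable {K E Y : Type*} [MetricSpace K] [CompactSpace K] [NormedAddCommGroup E] [NormedSpace ℝ E]
  [NormedAddCommGroup Y] [NormedSpace ℝ Y]

/-- Radial extension. -/
noncomputable def rad (f : C(K, E) → Y) (x : C(K, E)) : Y := ‖x‖ • f (‖x‖⁻¹ • x)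

theorem rad_zero (f : C(K, E) → Y) : rad f 0 = 0 := by simp [rad]

theorem rad_unit (f : C(K, E) → Y) {x : C(K, E)} (hx : ‖x‖ = 1) : rad f x = f x := by
  simp [rad, hx]

theorem rad_pos (f : C(K, E) → Y) {s : ℝ} (hs : 0 < s) (x : C(K, E)) :
    rad f (s • x) = s • rad f x := by
  by_cases hx : x = 0
  · subst hx
    simp [rad_zero]
  have hn : ‖s • x‖ = s * ‖x‖ := by rw [norm_smul, Real.norm_eq_abs, abs_of_pos hs]
  have hn0 : ‖x‖ ≠ 0 := norm_ne_zero_iff.2 hx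
  have e1 : ‖s • x‖⁻¹ • (s • x) = ‖x‖⁻¹ • x := by
    rw [hn, smul_smul]
    congr 1
    field_simp
  simp only [rad]
  rw [e1, hn, smul_smul]

theorem unit_of_ne {x : C(K, E)} (hx : x ≠ 0) : ‖‖x‖⁻¹ • x‖ = 1 := by
  have hn : ‖x‖ ≠ 0 := norm_ne_zero_iff.2 hx
  rw [norm_smul, norm_inv, norm_norm, inv_mul_cancel₀ hn]

variable {f : C(K, E) → Y} {g : Y → C(K, E)}

namespace Ctx

theorem norm_rad (D : Ctx f g) (x : C(K, E)) : ‖rad f x‖ = ‖x‖ := by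
  by_cases hx : x = 0
  · subst hx
    simp [rad_zero]
  simp only [rad]
  rw [norm_smul, D.hf.norm_eq _ (unit_of_ne hx), norm_norm, mul_one]

theorem rad_neg (D : Ctx f g) (x : C(K, E)) : rad f (-x) = -rad f x := by
  by_cases hx : x = 0
  · subst hx
    simp [rad_zero]
  simp only [rad]
  have e : ‖-x‖⁻¹ • (-x) = -(‖x‖⁻¹ • x) := by
    rw [norm_neg, smul_neg]
  rw [e, odd_of_isSphereIso D.hf (unit_of_ne hx), norm_neg, smul_neg]

theorem rad_smul (D : Ctx f g) (c : ℝ) (x : C(K, E)) : rad f (c • x) = c • rad f x := by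
  rcases lt_trichotomy c 0 with h | h | h
  · have e : c • x = -((-c) • x) := by module
    rw [e, D.rad_neg, rad_pos f (by linarith)]
    module
  · subst h
    simp [rad_zero]
  · exact rad_pos f h x

/-- `f` on the sum of a unit function and a function of norm at most one with disjoint supports. -/
theorem f_add_ball (D : Ctx f g) {O : Set K} (hO : IsOpen O) {z x : C(K, E)} (hz : ‖z‖ = 1)
    (hzO : ∀ r, r ∉ O → z r = 0) (hx : x ∈ Wsub E O) (hx1 : ‖x‖ ≤ 1) :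
    f (z + x) = f z + rad f x := by
  by_cases hx0 : x = 0
  · subst hx0
    simp [rad_zero]
  have ht0 : 0 < ‖x‖ := norm_pos_iff.2 hx0
  have hw := unit_of_ne hx0
  have hwO : ‖x‖⁻¹ • x ∈ Wsub E O := (Wsub E O).smul_mem _ hx
  have h1 := D.radial hO hz hzO hw hwO ht0 hx1
  have e : ‖x‖ • (‖x‖⁻¹ • x) = x := by
    rw [smul_smul, mul_inv_cancel₀ ht0.ne', one_smul]
  rw [e] at h1
  have h2 := (D.y_facts hz hzO hw hwO ht0.le hx1).1
  have h3 := D.fg _ h2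
  rw [h1] at h3
  exact h3

theorem norm_z_add (_D : Ctx f g) {O : Set K} {z x : C(K, E)} (hz : ‖z‖ = 1)
    (hzO : ∀ r, r ∉ O → z r = 0) (hx : x ∈ Wsub E O) (hx1 : ‖x‖ ≤ 1) : ‖z + x‖ = 1 := by
  rw [norm_add_disj hzO hx, hz, max_eq_left hx1]

theorem rad_iso_ball (D : Ctx f g) {O : Set K} (hO : IsOpen O) {z x x' : C(K, E)} (hz : ‖z‖ = 1)
    (hzO : ∀ r, r ∉ O → z r = 0) (hx : x ∈ Wsub E O) (hx1 : ‖x‖ ≤ 1) (hx' : x' ∈ Wsub E O)
    (hx1' : ‖x'‖ ≤ 1) : ‖rad f x - rad f x'‖ = ‖x - x'‖ := by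
  have h1 := D.hf.iso _ _ (D.norm_z_add hz hzO hx hx1) (D.norm_z_add hz hzO hx' hx1')
  rw [D.f_add_ball hO hz hzO hx hx1, D.f_add_ball hO hz hzO hx' hx1', add_sub_add_left_eq_sub,
    add_sub_add_left_eq_sub] at h1
  exact h1

theorem scale_lt (x x' : C(K, E)) : ‖(1 + ‖x‖ + ‖x'‖)⁻¹ • x‖ < 1 := by
  have h0 : 0 < 1 + ‖x‖ + ‖x'‖ := by positivity
  rw [norm_smul, norm_inv, Real.norm_eq_abs, abs_of_pos h0, inv_mul_lt_iff₀ h0]
  have := norm_nonneg x'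
  linarith

theorem scale_lt' (x x' : C(K, E)) : ‖(1 + ‖x‖ + ‖x'‖)⁻¹ • x'‖ < 1 := by
  have h0 : 0 < 1 + ‖x‖ + ‖x'‖ := by positivity
  rw [norm_smul, norm_inv, Real.norm_eq_abs, abs_of_pos h0, inv_mul_lt_iff₀ h0]
  have := norm_nonneg x
  linarith

theorem rad_iso (D : Ctx f g) {O : Set K} (hO : IsOpen O) {z x x' : C(K, E)} (hz : ‖z‖ = 1)
    (hzO : ∀ r, r ∉ O → z r = 0) (hx : x ∈ Wsub E O) (hx' : x' ∈ Wsub E O) :
    ‖rad f x - rad f x'‖ = ‖x - x'‖ := by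
  obtain ⟨s, hs⟩ : ∃ s : ℝ, s = (1 + ‖x‖ + ‖x'‖)⁻¹ := ⟨_, rfl⟩
  have h0 : 0 < s := by rw [hs]; positivity
  have h1 := scale_lt x x'
  have h2 := scale_lt' x x'
  rw [← hs] at h1 h2
  have e0 := D.rad_iso_ball hO hz hzO ((Wsub E O).smul_mem s hx) h1.le
    ((Wsub E O).smul_mem s hx') h2.le
  rw [rad_pos f h0, rad_pos f h0] at e0
  have e3 : s • rad f x - s • rad f x' = s • (rad f x - rad f x') := by module
  have e4 : s • x - s • x' = s • (x - x') := by module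
  rw [e3, e4, norm_smul, norm_smul, Real.norm_eq_abs, abs_of_pos h0] at e0
  exact mul_left_cancel₀ h0.ne' e0

/-- Midpoints of values of the radial extension. -/
theorem rad_mid (D : Ctx f g) {O : Set K} (hO : IsOpen O) {z x₁ x₂ : C(K, E)} (hz : ‖z‖ = 1)
    (hzO : ∀ r, r ∉ O → z r = 0) (h₁ : x₁ ∈ Wsub E O) (h₂ : x₂ ∈ Wsub E O) (n₁ : ‖x₁‖ < 1)
    (n₂ : ‖x₂‖ < 1) : ∃ ξ ∈ Wsub E O, rad f ξ = (1 / 2 : ℝ) • (rad f x₁ + rad f x₂) := by
  have hu₁ : ∀ z' : C(K, E), ‖z'‖ = 1 → (∀ r, r ∉ O → z' r = 0) → ‖z' + x₁‖ = 1 :=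
    fun z' h h' => D.norm_z_add h h' h₁ n₁.le
  have hu₂ : ∀ z' : C(K, E), ‖z'‖ = 1 → (∀ r, r ∉ O → z' r = 0) → ‖z' + x₂‖ = 1 :=
    fun z' h h' => D.norm_z_add h h' h₂ n₂.le
  have hsum : ∀ z' : C(K, E), ‖z'‖ = 1 → (∀ r, r ∉ O → z' r = 0) →
      ‖f (z' + x₁) + f (z' + x₂)‖ = 2 := by
    intro z' h h'
    rw [D.norm_add (hu₁ z' h h') (hu₂ z' h h')]
    have e : z' + x₁ + (z' + x₂) = (z' + z') + (x₁ + x₂) := by abel
    have h2 : ‖z' + z'‖ = 2 := by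
      rw [← two_smul ℝ z', norm_smul, h]
      norm_num
    have h3 := norm_add_disj (O := O) (z := z' + z') (w := x₁ + x₂)
      (fun r hr => by rw [ContinuousMap.add_apply, h' r hr, add_zero])
      ((Wsub E O).add_mem h₁ h₂)
    have h4 : ‖x₁ + x₂‖ ≤ 2 := (norm_add_le _ _).trans (by linarith)
    rw [e, h3, h2, max_eq_left h4]
  have hy : ∀ z' : C(K, E), ‖z'‖ = 1 → (∀ r, r ∉ O → z' r = 0) →
      ‖(1 / 2 : ℝ) • (f (z' + x₁) + f (z' + x₂))‖ = 1 := by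
    intro z' h h'
    rw [smul_add, cof_combo (D.hf.norm_eq _ (hu₁ z' h h')) (D.hf.norm_eq _ (hu₂ z' h h'))
      (hsum z' h h') (by norm_num) (by norm_num)]
    norm_num
  have hya : ∀ z' : C(K, E), ‖z'‖ = 1 → (∀ r, r ∉ O → z' r = 0) →
      ‖(1 / 2 : ℝ) • (f (z' + x₁) + f (z' + x₂)) + f (z' + x₁)‖ = 2 := by
    intro z' h h'
    have e : (1 / 2 : ℝ) • (f (z' + x₁) + f (z' + x₂)) + f (z' + x₁) =
        (3 / 2 : ℝ) • f (z' + x₁) + (1 / 2 : ℝ) • f (z' + x₂) := by module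
    rw [e, cof_combo (D.hf.norm_eq _ (hu₁ z' h h')) (D.hf.norm_eq _ (hu₂ z' h h'))
      (hsum z' h h') (by norm_num) (by norm_num)]
    norm_num
  have hon : ∀ s ∈ O, g ((1 / 2 : ℝ) • (f (z + x₁) + f (z + x₂))) s = z s := by
    intro s hs
    refine loc_O hO (P := fun z' => g ((1 / 2 : ℝ) • (f (z' + x₁) + f (z' + x₂)))) ?_ ?_ ?_
      hz hzO hs
    · intro z' h h'
      exact (D.hg.norm_eq _ (hy z' h h')).le
    · intro z' z'' h h' h2 h2'
      show ‖g ((1 / 2 : ℝ) • (f (z' + x₁) + f (z' + x₂))) -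
        g ((1 / 2 : ℝ) • (f (z'' + x₁) + f (z'' + x₂)))‖ ≤ ‖z' - z''‖
      rw [D.hg.iso _ _ (hy z' h h') (hy z'' h2 h2')]
      have e : (1 / 2 : ℝ) • (f (z' + x₁) + f (z' + x₂)) -
          (1 / 2 : ℝ) • (f (z'' + x₁) + f (z'' + x₂)) =
          (1 / 2 : ℝ) • ((f (z' + x₁) - f (z'' + x₁)) + (f (z' + x₂) - f (z'' + x₂))) := by
        module
      rw [e, norm_smul]
      have h3 := norm_add_le (f (z' + x₁) - f (z'' + x₁)) (f (z' + x₂) - f (z'' + x₂))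
      rw [D.hf.iso _ _ (hu₁ z' h h') (hu₁ z'' h2 h2'), D.hf.iso _ _ (hu₂ z' h h') (hu₂ z'' h2 h2'),
        add_sub_add_right_eq_sub, add_sub_add_right_eq_sub] at h3
      norm_num
      linarith
    · intro z' s h h' hs _ hr
      have h3 := peak_two (p := g ((1 / 2 : ℝ) • (f (z' + x₁) + f (z' + x₂)))) (q := z' + x₁)
        (s := s) (D.hg.norm_eq _ (hy z' h h')).le ?_ ?_
      · rwa [ContinuousMap.add_apply, h₁ s hs, add_zero] at h3
      · intro r hrs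
        rw [ContinuousMap.add_apply]
        by_cases hrO : r ∈ O
        · rw [h₁ r hrO, add_zero]
          exact hr r hrs
        · rw [h' r hrO, zero_add]
          exact lt_of_le_of_lt (x₁.norm_coe_le_norm r) n₁
      · rw [D.norm_g_add (hy z' h h') (hu₁ z' h h')]
        exact hya z' h h'
  obtain ⟨P, hP⟩ : ∃ P, P = g ((1 / 2 : ℝ) • (f (z + x₁) + f (z + x₂))) := ⟨_, rfl⟩
  rw [← hP] at hon
  have hPn : ‖P‖ = 1 := by rw [hP]; exact D.hg.norm_eq _ (hy z hz hzO)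
  have hmem : P - z ∈ Wsub E O := fun r hr => by
    rw [ContinuousMap.sub_apply, hon r hr, sub_self]
  have hξ1 : ‖P - z‖ ≤ 1 := by
    refine (ContinuousMap.norm_le _ zero_le_one).2 fun r => ?_
    by_cases hr : r ∈ O
    · rw [hmem r hr, norm_zero]
      exact zero_le_one
    · rw [ContinuousMap.sub_apply, hzO r hr, sub_zero]
      exact (P.norm_coe_le_norm r).trans hPn.le
  refine ⟨P - z, hmem, ?_⟩
  have h1 := D.f_add_ball hO hz hzO hmem hξ1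
  have e : z + (P - z) = P := by abel
  have h5 : f P = (1 / 2 : ℝ) • (f (z + x₁) + f (z + x₂)) := by
    rw [hP]
    exact D.fg _ (hy z hz hzO)
  rw [e, h5, D.f_add_ball hO hz hzO h₁ n₁.le, D.f_add_ball hO hz hzO h₂ n₂.le] at h1
  calc rad f (P - z) = (f z + rad f (P - z)) - f z := by abel
    _ = (1 / 2 : ℝ) • (f z + rad f x₁ + (f z + rad f x₂)) - f z := by rw [← h1]
    _ = (1 / 2 : ℝ) • (rad f x₁ + rad f x₂) := by module

theorem rad_add_mem (D : Ctx f g) {O : Set K} (hO : IsOpen O) {z x x' : C(K, E)} (hz : ‖z‖ = 1)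
    (hzO : ∀ r, r ∉ O → z r = 0) (hx : x ∈ Wsub E O) (hx' : x' ∈ Wsub E O) :
    ∃ ξ ∈ Wsub E O, rad f x + rad f x' = rad f ξ := by
  obtain ⟨s, hs⟩ : ∃ s : ℝ, s = (1 + ‖x‖ + ‖x'‖)⁻¹ := ⟨_, rfl⟩
  have h0 : 0 < s := by rw [hs]; positivity
  have h1 := scale_lt x x'
  have h2 := scale_lt' x x'
  rw [← hs] at h1 h2
  obtain ⟨ξ, hξ, h3⟩ := D.rad_mid hO hz hzO ((Wsub E O).smul_mem s hx)
    ((Wsub E O).smul_mem s hx') h1 h2
  refine ⟨(2 * s⁻¹) • ξ, (Wsub E O).smul_mem _ hξ, ?_⟩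
  rw [D.rad_smul, h3, rad_pos f h0, rad_pos f h0]
  have e : (2 * s⁻¹) • ((1 / 2 : ℝ) • (s • rad f x + s • rad f x')) =
      (s⁻¹ * s) • (rad f x + rad f x') := by module
  rw [e, inv_mul_cancel₀ h0.ne', one_smul]

/-- **The radial extension is additive on the functions vanishing on `O`** (Mazur-Ulam). -/
theorem rad_add (D : Ctx f g) {O : Set K} (hO : IsOpen O) {z : C(K, E)} (hz : ‖z‖ = 1)
    (hzO : ∀ r, r ∉ O → z r = 0) {x x' : C(K, E)} (hx : x ∈ Wsub E O) (hx' : x' ∈ Wsub E O) :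
    rad f (x + x') = rad f x + rad f x' := by
  let V : Wsub E O → Y := fun v => rad f v
  let H : Submodule ℝ Y :=
    { carrier := Set.range V
      add_mem' := by
        rintro _ _ ⟨a, rfl⟩ ⟨b, rfl⟩
        obtain ⟨ξ, hξ, h⟩ := D.rad_add_mem hO hz hzO a.2 b.2
        exact ⟨⟨ξ, hξ⟩, h.symm⟩
      zero_mem' := ⟨0, rad_zero f⟩
      smul_mem' := by
        rintro c _ ⟨a, rfl⟩
        exact ⟨c • a, D.rad_smul c a⟩ }
  let F : Wsub E O → H := fun v => ⟨V v, ⟨v, rfl⟩⟩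
  have hFiso : Isometry F := by
    refine Isometry.of_dist_eq fun a b => ?_
    rw [Subtype.dist_eq, dist_eq_norm, dist_eq_norm]
    exact D.rad_iso hO hz hzO a.2 b.2
  have hFsurj : Function.Surjective F := by
    rintro ⟨_, ⟨a, rfl⟩⟩
    exact ⟨a, rfl⟩
  let e : Wsub E O ≃ᵢ H := IsometryEquiv.mk (Equiv.ofBijective F ⟨hFiso.injective, hFsurj⟩) hFiso
  have h0 : e 0 = 0 := by
    apply Subtype.ext
    exact rad_zero f
  let L := e.toRealLinearIsometryEquivOfMapZero h0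
  have hL : ∀ a, ((L a : H) : Y) = rad f a := fun a => rfl
  have h3 : L (⟨x, hx⟩ + ⟨x', hx'⟩) = L ⟨x, hx⟩ + L ⟨x', hx'⟩ := L.map_add _ _
  have h2 := congrArg Subtype.val h3
  rw [Submodule.coe_add, hL, hL, hL] at h2
  exact h2

end Ctx

end Vale.Agent.Lib.P084.CKE
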