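/-
Sphere isometries of `C(K, E)` (helper34), the main theorem: `K` a compact metric space without
isolated points, `E` any nonzero normed space.  Every surjective isometry of the unit sphere of
`C(K, E)` onto the unit sphere of a normed space `Y` is the restriction of a linear isometry.
-/
import Vale.Agent.Lib.P084.CKE.Linear

namespace Vale.Agent.Lib.P084.CKE

open Vale.Agent.Lib.P084.UC Vale.Agent.Lib.P084.Inf

variable {K E Y : Type*} [MetricSpace K] [CompactSpace K] [NormedAddCommGroup E] [NormedSpace ℝ E]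
  [NormedAddCommGroup Y] [NormedSpace ℝ Y]

/-- A continuous function which is `0` near `p` and `1` far from `p`. -/
noncomputable def chi (p : K) (ρ : ℝ) : C(K, ℝ) :=
  ⟨fun r => min 1 (max 0 (dist r p / ρ - 1)), by fun_prop⟩

omit [CompactSpace K] in
theorem chi_apply (p : K) (ρ : ℝ) (r : K) : chi p ρ r = min 1 (max 0 (dist r p / ρ - 1)) := rfl

omit [CompactSpace K] in
theorem chi_nonneg (p : K) (ρ : ℝ) (r : K) : 0 ≤ chi p ρ r := by
  rw [chi_apply]
  exact le_min zero_le_one (le_max_left _ _)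

omit [CompactSpace K] in
theorem chi_le_one (p : K) (ρ : ℝ) (r : K) : chi p ρ r ≤ 1 := by
  rw [chi_apply]
  exact min_le_left _ _

omit [CompactSpace K] in
theorem chi_eq_zero (p : K) {ρ : ℝ} (hρ : 0 < ρ) {r : K} (h : dist r p ≤ ρ) : chi p ρ r = 0 := by
  rw [chi_apply]
  have h1 : dist r p / ρ ≤ 1 := (div_le_one hρ).2 h
  rw [max_eq_left (by linarith), min_eq_right zero_le_one]

omit [CompactSpace K] in
theorem chi_eq_one (p : K) {ρ : ℝ} (hρ : 0 < ρ) {r : K} (h : 2 * ρ ≤ dist r p) :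
    chi p ρ r = 1 := by
  rw [chi_apply]
  have h1 : 2 ≤ dist r p / ρ := (le_div_iff₀ hρ).2 (by linarith)
  refine min_eq_left ?_
  exact le_max_of_le_right (by linarith)

/-- Multiplication by a scalar function. -/
noncomputable def cmul (χ : C(K, ℝ)) (x : C(K, E)) : C(K, E) :=
  ⟨fun r => χ r • x r, χ.continuous.smul x.continuous⟩

omit [CompactSpace K] in
theorem cmul_apply (χ : C(K, ℝ)) (x : C(K, E)) (r : K) : cmul χ x r = χ r • x r := rfl

omit [CompactSpace K] in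
theorem cmul_add (χ : C(K, ℝ)) (x x' : C(K, E)) : cmul χ (x + x') = cmul χ x + cmul χ x' := by
  ext r
  simp [cmul_apply, smul_add]

omit [CompactSpace K] in
theorem cmul_smul (χ : C(K, ℝ)) (c : ℝ) (x : C(K, E)) : cmul χ (c • x) = c • cmul χ x := by
  ext r
  simp only [cmul_apply, ContinuousMap.smul_apply]
  rw [smul_comm]

omit [CompactSpace K] in
theorem compl_apply (χ : C(K, ℝ)) (x : C(K, E)) (r : K) :
    (x - cmul χ x) r = (1 - χ r) • x r := by
  rw [ContinuousMap.sub_apply, cmul_apply, sub_smul, one_smul]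

theorem norm_cmul_le {χ : C(K, ℝ)} (h0 : ∀ r, 0 ≤ χ r) (h1 : ∀ r, χ r ≤ 1) (x : C(K, E)) :
    ‖cmul χ x‖ ≤ ‖x‖ := by
  refine (ContinuousMap.norm_le _ (norm_nonneg _)).2 fun r => ?_
  rw [cmul_apply, norm_smul, Real.norm_eq_abs, abs_of_nonneg (h0 r)]
  have h2 := x.norm_coe_le_norm r
  have h3 := norm_nonneg (x r)
  nlinarith [h0 r, h1 r]

theorem norm_compl_le {χ : C(K, ℝ)} (h0 : ∀ r, 0 ≤ χ r) (h1 : ∀ r, χ r ≤ 1) (x : C(K, E)) :
    ‖x - cmul χ x‖ ≤ ‖x‖ := by
  refine (ContinuousMap.norm_le _ (norm_nonneg _)).2 fun r => ?_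
  rw [compl_apply, norm_smul, Real.norm_eq_abs, abs_of_nonneg (by linarith [h1 r])]
  have h2 := x.norm_coe_le_norm r
  have h3 := norm_nonneg (x r)
  nlinarith [h0 r, h1 r]

variable {f : C(K, E) → Y} {g : Y → C(K, E)}

namespace Ctx

/-- Two peaks: the values of `g (L x)` away from the first peak. -/
theorem two_peak_aux (D : Ctx f g) {L : C(K, E) → Y}
    (hLadd : ∀ x x', L (x + x') = L x + L x')
    (hLW : ∀ O : Set K, IsOpen O → O.Nonempty → ∀ x ∈ Wsub E O, L x = rad f x)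
    {x : C(K, E)} (hx : ‖x‖ = 1) {p q s : K} (hp : ‖x p‖ = 1) (hq : ‖x q‖ = 1) (hqp : q ≠ p)
    (hsp : s ≠ p) : ‖L x‖ = 1 ∧ g (L x) s = x s := by
  have hd1 : 0 < dist s p := dist_pos.2 hsp
  have hd2 : 0 < dist q p := dist_pos.2 hqp
  obtain ⟨ρ, hρdef⟩ : ∃ ρ, ρ = min (dist s p) (dist q p) / 3 := ⟨_, rfl⟩
  have hρ : 0 < ρ := by rw [hρdef]; exact div_pos (lt_min hd1 hd2) (by norm_num)
  have hρ1 : 3 * ρ ≤ dist s p := by
    rw [hρdef]
    have := min_le_left (dist s p) (dist q p)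
    linarith
  have hρ2 : 3 * ρ ≤ dist q p := by
    rw [hρdef]
    have := min_le_right (dist s p) (dist q p)
    linarith
  have h0χ := chi_nonneg p ρ
  have h1χ := chi_le_one p ρ
  obtain ⟨v, hv⟩ : ∃ v, v = cmul (chi p ρ) x := ⟨_, rfl⟩
  obtain ⟨u, hu⟩ : ∃ u, u = x - cmul (chi p ρ) x := ⟨_, rfl⟩
  have hχq : chi p ρ q = 1 := chi_eq_one p hρ (by linarith)
  have hχs : chi p ρ s = 1 := chi_eq_one p hρ (by linarith)
  have hχp : chi p ρ p = 0 := chi_eq_zero p hρ (by simpa using hρ.le)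
  have hvn : ‖v‖ = 1 := by
    refine le_antisymm ?_ ?_
    · rw [hv, ← hx]
      exact norm_cmul_le h0χ h1χ x
    · have h1 := v.norm_coe_le_norm q
      rw [hv, cmul_apply, hχq, one_smul, hq] at h1
      rw [hv]
      exact h1
  have hun : ‖u‖ = 1 := by
    refine le_antisymm ?_ ?_
    · rw [hu, ← hx]
      exact norm_compl_le h0χ h1χ x
    · have h1 := u.norm_coe_le_norm p
      rw [hu, compl_apply, hχp, sub_zero, one_smul, hp] at h1
      rw [hu]
      exact h1
  have hvu : v + u = x := by rw [hv, hu]; abel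
  have hvW : v ∈ Wsub E (Metric.ball p ρ) := fun r hr => by
    rw [hv, cmul_apply, chi_eq_zero p hρ (Metric.mem_ball.1 hr).le, zero_smul]
  have huW : u ∈ Wsub E {r : K | 2 * ρ < dist r p} := fun r hr => by
    have hr' : 2 * ρ < dist r p := hr
    rw [hu, compl_apply, chi_eq_one p hρ hr'.le, sub_self, zero_smul]
  have hO1 : IsOpen {r : K | 2 * ρ < dist r p} := isOpen_lt continuous_const (by fun_prop)
  have hne1 : ({r : K | 2 * ρ < dist r p}).Nonempty := ⟨q, by
    show 2 * ρ < dist q p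
    linarith⟩
  have hLv : L v = f v := by
    rw [hLW _ Metric.isOpen_ball ⟨p, Metric.mem_ball_self hρ⟩ v hvW, rad_unit f hvn]
  have hLu : L u = f u := by
    rw [hLW _ hO1 hne1 u huW, rad_unit f hun]
  have hLx : L x = f v + f u := by
    rw [← hvu, hLadd, hLv, hLu]
  refine ⟨?_, ?_⟩
  · rw [hLx, D.norm_add hvn hun, hvu, hx]
  · rw [hLx]
    have h1 := D.triple hvn hun (by rw [hvu, hx]) (s := s) (δ₀ := dist s p - 2 * ρ) (by linarith) ?_
    · rw [h1, hv, cmul_apply, hχs, one_smul]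
    · intro r hr
      have h2 : dist s p ≤ dist s r + dist r p := dist_triangle s r p
      have h3 : dist s r = dist r s := dist_comm s r
      have h4 : 2 * ρ < dist r p := by linarith
      rw [hu, compl_apply, chi_eq_one p hρ h4.le, sub_self, zero_smul]

/-- The linear extension. -/
theorem exists_T (D : Ctx f g) [Nontrivial E] [Nonempty K]
    (hK : ∀ (s : K) (δ : ℝ), 0 < δ → ∃ r, r ≠ s ∧ dist r s < δ) :
    ∃ T : C(K, E) ≃ₗᵢ[ℝ] Y, ∀ x, ‖x‖ = 1 → T x = f x := by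
  classical
  obtain ⟨a, ha⟩ : ∃ a : E, ‖a‖ = 1 := by
    obtain ⟨a, hane⟩ := exists_ne (0 : E)
    exact ⟨‖a‖⁻¹ • a, by rw [norm_smul, norm_inv, norm_norm, inv_mul_cancel₀ (norm_ne_zero_iff.2 hane)]⟩
  have hunit : ∀ O : Set K, IsOpen O → O.Nonempty →
      ∃ z : C(K, E), ‖z‖ = 1 ∧ ∀ r, r ∉ O → z r = 0 := by
    rintro O hO ⟨s, hs⟩
    obtain ⟨δ, hδ, hball⟩ := Metric.isOpen_iff.1 hO s hs
    refine ⟨testFn 0 s δ 1 a, test_norm 0 s hδ one_pos le_rfl (by simp) ha, fun r hr => ?_⟩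
    have hfar : δ ≤ dist r s := by
      by_contra hcon
      exact hr (hball (Metric.mem_ball.2 (not_le.1 hcon)))
    rw [test_far 0 s hδ 1 a hfar]
    simp
  have hradd : ∀ O : Set K, IsOpen O → O.Nonempty → ∀ x ∈ Wsub E O, ∀ x' ∈ Wsub E O,
      rad f (x + x') = rad f x + rad f x' := by
    intro O hO hne x hx x' hx'
    obtain ⟨z, hz, hzO⟩ := hunit O hO hne
    exact D.rad_add hO hz hzO hx hx'
  obtain ⟨p₀⟩ := ‹Nonempty K›
  obtain ⟨q₀, hq₀, -⟩ := hK p₀ 1 one_pos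
  have hd : 0 < dist q₀ p₀ := dist_pos.2 hq₀
  obtain ⟨ρ, hρdef⟩ : ∃ ρ, ρ = dist q₀ p₀ / 3 := ⟨_, rfl⟩
  have hρ : 0 < ρ := by rw [hρdef]; positivity
  have h0χ := chi_nonneg p₀ ρ
  have h1χ := chi_le_one p₀ ρ
  obtain ⟨χ, hχ⟩ : ∃ χ, χ = chi p₀ ρ := ⟨_, rfl⟩
  rw [← hχ] at h0χ h1χ
  have hO₁ : IsOpen {r : K | 2 * ρ < dist r p₀} := isOpen_lt continuous_const (by fun_prop)
  have hne₁ : ({r : K | 2 * ρ < dist r p₀}).Nonempty := ⟨q₀, by
    show 2 * ρ < dist q₀ p₀
    rw [hρdef]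
    linarith⟩
  have hne₀ : (Metric.ball p₀ ρ).Nonempty := ⟨p₀, Metric.mem_ball_self hρ⟩
  have mem₀ : ∀ x : C(K, E), cmul χ x ∈ Wsub E (Metric.ball p₀ ρ) := fun x r hr => by
    rw [cmul_apply, hχ, chi_eq_zero p₀ hρ (Metric.mem_ball.1 hr).le, zero_smul]
  have mem₁ : ∀ x : C(K, E), x - cmul χ x ∈ Wsub E {r : K | 2 * ρ < dist r p₀} := fun x r hr => by
    have hr' : 2 * ρ < dist r p₀ := hr
    rw [compl_apply, hχ, chi_eq_one p₀ hρ hr'.le, sub_self, zero_smul]
  obtain ⟨Lf, hLf⟩ : ∃ Lf : C(K, E) → Y, ∀ x, Lf x = rad f (cmul χ x) + rad f (x - cmul χ x) :=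
    ⟨_, fun _ => rfl⟩
  have hLadd : ∀ x x', Lf (x + x') = Lf x + Lf x' := by
    intro x x'
    have e : x + x' - cmul χ (x + x') = (x - cmul χ x) + (x' - cmul χ x') := by
      rw [cmul_add]
      abel
    rw [hLf, hLf, hLf, e, cmul_add,
      hradd _ Metric.isOpen_ball hne₀ _ (mem₀ x) _ (mem₀ x'),
      hradd _ hO₁ hne₁ _ (mem₁ x) _ (mem₁ x')]
    abel
  have hLsmul : ∀ (c : ℝ) x, Lf (c • x) = c • Lf x := by
    intro c x
    have e : c • x - cmul χ (c • x) = c • (x - cmul χ x) := by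
      rw [cmul_smul, smul_sub]
    rw [hLf, hLf, e, cmul_smul, D.rad_smul, D.rad_smul, smul_add]
  have hLW : ∀ O : Set K, IsOpen O → O.Nonempty → ∀ x ∈ Wsub E O, Lf x = rad f x := by
    intro O hO hne x hx
    have h1 : cmul χ x ∈ Wsub E O := fun r hr => by
      rw [cmul_apply, hx r hr, smul_zero]
    have h2 : x - cmul χ x ∈ Wsub E O := (Wsub E O).sub_mem hx h1
    have e : cmul χ x + (x - cmul χ x) = x := by abel
    have h3 := hradd O hO hne _ h1 _ h2
    rw [e] at h3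
    rw [hLf, h3]
  have hbound : ∀ h, ‖Lf h‖ ≤ 2 * ‖h‖ := by
    intro h
    rw [hLf]
    refine (norm_add_le _ _).trans ?_
    rw [D.norm_rad, D.norm_rad]
    have h1 := norm_cmul_le h0χ h1χ h
    have h2 := norm_compl_le h0χ h1χ h
    linarith
  have hpeaks : ∀ x : C(K, E), ‖x‖ = 1 → ∀ p q : K, ‖x p‖ = 1 → ‖x q‖ = 1 → q ≠ p → Lf x = f x := by
    intro x hx p q hp hq hqp
    have hn : ‖Lf x‖ = 1 := (D.two_peak_aux hLadd hLW hx hp hq hqp hqp).1
    have hgx : g (Lf x) = x := by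
      ext s
      by_cases hs : s = p
      · have hsq : s ≠ q := by
          rw [hs]
          exact Ne.symm hqp
        exact (D.two_peak_aux hLadd hLW hx hq hp (Ne.symm hqp) hsq).2
      · exact (D.two_peak_aux hLadd hLW hx hp hq hqp hs).2
    rw [← D.fg _ hn, hgx]
  have hdense : ∀ x : C(K, E), ‖x‖ = 1 → Lf x = f x := by
    intro x hx
    haveI : Nonempty K := ⟨p₀⟩
    obtain ⟨p, hp⟩ := exists_peak x
    rw [hx] at hp
    have hle : ‖f x - Lf x‖ ≤ 0 := by
      refine le_of_forall_pos_le_add fun ε hε => ?_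
      obtain ⟨δ, hδ, hc⟩ := Metric.continuous_iff.1 x.continuous p (ε / 9) (by positivity)
      obtain ⟨q, hqp, hqd⟩ := hK p (δ / 2) (by positivity)
      have hδ2 : 0 < δ / 2 := by positivity
      obtain ⟨x', hx'def⟩ : ∃ x', x' = testFn x q (δ / 2) 0 (x p) := ⟨_, rfl⟩
      have hx'q : x' q = x p := by rw [hx'def, test_self x q hδ2]
      have hx'p : x' p = x p := by
        rw [hx'def, testFn_apply]
        module
      have hx'n : ‖x'‖ = 1 := by
        refine le_antisymm ?_ ?_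
        · refine (ContinuousMap.norm_le _ zero_le_one).2 fun r => ?_
          have h1 := norm_test_le x q (η := 0) hδ2 zero_le_one hx.le hp r
          rw [hx'def]
          simpa using h1
        · have h1 := x'.norm_coe_le_norm q
          rwa [hx'q, hp] at h1
      have hclose : ‖x - x'‖ ≤ 3 * (ε / 9) := by
        have h1 : ‖x q - x p‖ < ε / 9 := by
          have h2 := hc q (by linarith)
          rwa [dist_eq_norm] at h2
        have h3 := test_close x q (η := 0) (ε := 2 * (ε / 9)) (a := x p) hδ2 le_rfl zero_le_one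
          hx.le (by positivity) (fun r hr => by
            have h4 : dist r p < δ := by
              have h5 := dist_triangle r q p
              linarith
            have h6 := hc r h4
            rw [dist_eq_norm] at h6
            have h7 : x r - x q = (x r - x p) - (x q - x p) := by abel
            rw [h7]
            refine (norm_sub_le _ _).trans ?_
            linarith)
        rw [← hx'def] at h3
        linarith
      have h1 : f x' = Lf x' := (hpeaks x' hx'n p q (by rw [hx'p, hp]) (by rw [hx'q, hp]) hqp).symm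
      have h2 : Lf x' = Lf x + Lf (x' - x) := by
        rw [← hLadd]
        congr 1
        abel
      have h3 : f x - Lf x = (f x - f x') + Lf (x' - x) := by
        rw [h1, h2]
        abel
      have h4 := hbound (x' - x)
      have h5 : ‖x' - x‖ = ‖x - x'‖ := norm_sub_rev _ _
      rw [h3, zero_add]
      refine (norm_add_le _ _).trans ?_
      rw [D.hf.iso x x' hx hx'n]
      rw [h5] at h4
      linarith
    have h0 : ‖f x - Lf x‖ = 0 := le_antisymm hle (norm_nonneg _)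
    exact (sub_eq_zero.1 (norm_eq_zero.1 h0)).symm
  let L₀ : C(K, E) →ₗ[ℝ] Y :=
    { toFun := Lf
      map_add' := hLadd
      map_smul' := fun c x => by
        simp only [RingHom.id_apply]
        exact hLsmul c x }
  have hL₀ : ∀ x, L₀ x = Lf x := fun x => rfl
  have hnorm : ∀ x, ‖L₀ x‖ = ‖x‖ := by
    intro x
    by_cases hx : x = 0
    · rw [hx, map_zero, norm_zero, norm_zero]
    · have hu := unit_of_ne hx
      have hn : ‖x‖ ≠ 0 := norm_ne_zero_iff.2 hx
      have e : x = ‖x‖ • (‖x‖⁻¹ • x) := by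
        rw [smul_smul, mul_inv_cancel₀ hn, one_smul]
      have h1 : L₀ x = ‖x‖ • f (‖x‖⁻¹ • x) := by
        conv_lhs => rw [e]
        rw [map_smul, hL₀, hdense _ hu]
      rw [h1, norm_smul, D.hf.norm_eq _ hu, mul_one, norm_norm]
  have hsurj : Function.Surjective L₀ := by
    intro y
    by_cases hy : y = 0
    · exact ⟨0, by rw [hy, map_zero]⟩
    · have hn : ‖y‖ ≠ 0 := norm_ne_zero_iff.2 hy
      have hu : ‖‖y‖⁻¹ • y‖ = 1 := by
        rw [norm_smul, norm_inv, norm_norm, inv_mul_cancel₀ hn]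
      refine ⟨‖y‖ • g (‖y‖⁻¹ • y), ?_⟩
      rw [map_smul, hL₀, hdense _ (D.hg.norm_eq _ hu), D.fg _ hu, smul_smul,
        mul_inv_cancel₀ hn, one_smul]
  let Li : C(K, E) →ₗᵢ[ℝ] Y := ⟨L₀, hnorm⟩
  exact ⟨LinearIsometryEquiv.ofSurjective Li hsurj, fun x hx => hdense x hx⟩

end Ctx

/-- **Main theorem.** -/
theorem main [Nontrivial E] [Nonempty K]
    (hK : ∀ (s : K) (δ : ℝ), 0 < δ → ∃ r, r ≠ s ∧ dist r s < δ) {f : C(K, E) → Y}
    (hf : IsSphereIso f) : ∃ T : C(K, E) ≃ₗᵢ[ℝ] Y, ∀ x, ‖x‖ = 1 → T x = f x := by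
  obtain ⟨g, hg⟩ := hf.exists_inv
  have hgf : ∀ x : C(K, E), ‖x‖ = 1 → g (f x) = x := by
    intro x hx
    obtain ⟨h1, h2⟩ := hg (f x) (hf.norm_eq x hx)
    have h3 := hf.iso _ _ h1 hx
    rw [h2, sub_self, norm_zero] at h3
    exact sub_eq_zero.1 (norm_eq_zero.1 h3.symm)
  have hgs : IsSphereIso g := by
    refine ⟨fun y hy => (hg y hy).1, fun y y' hy hy' => ?_, fun x hx => ?_⟩
    · rw [← hf.iso _ _ (hg y hy).1 (hg y' hy').1, (hg y hy).2, (hg y' hy').2]
    · exact ⟨f x, hf.norm_eq x hx, hgf x hx⟩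
  exact Ctx.exists_T ⟨hf, hgs, hgf, fun y hy => (hg y hy).2⟩ hK

/-- The same with `C(K, E)` as the target. -/
theorem main_target [Nontrivial E] [Nonempty K]
    (hK : ∀ (s : K) (δ : ℝ), 0 < δ → ∃ r, r ≠ s ∧ dist r s < δ) {f : Y → C(K, E)}
    (hf : IsSphereIso f) : ∃ T : Y ≃ₗᵢ[ℝ] C(K, E), ∀ x, ‖x‖ = 1 → T x = f x := by
  obtain ⟨g, hg⟩ := hf.exists_inv
  have hgf : ∀ x : Y, ‖x‖ = 1 → g (f x) = x := by
    intro x hx
    obtain ⟨h1, h2⟩ := hg (f x) (hf.norm_eq x hx)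
    have h3 := hf.iso _ _ h1 hx
    rw [h2, sub_self, norm_zero] at h3
    exact sub_eq_zero.1 (norm_eq_zero.1 h3.symm)
  have hgs : IsSphereIso g := by
    refine ⟨fun y hy => (hg y hy).1, fun y y' hy hy' => ?_, fun x hx => ?_⟩
    · rw [← hf.iso _ _ (hg y hy).1 (hg y' hy').1, (hg y hy).2, (hg y' hy').2]
    · exact ⟨f x, hf.norm_eq x hx, hgf x hx⟩
  obtain ⟨T, hT⟩ := main hK hgs
  refine ⟨T.symm, fun x hx => ?_⟩
  rw [LinearIsometryEquiv.symm_apply_eq, hT _ (hf.norm_eq x hx), hgf x hx]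

end Vale.Agent.Lib.P084.CKE
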