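/-
Sphere isometries of `C(K, E)` (helper34): the forms for maps of the unit spheres, with the space
`C(K, E)` up to a surjective linear isometry, on either side.
-/
import Vale.Agent.Lib.P084.CKE.Main

namespace Vale.Agent.Lib.P084.CKE

open Vale.Agent.Lib.P084.UC Metric

universe u v w x

/-- `X` is linearly isometric to `C(K, E)`, with `K` a nonempty compact metric space without
isolated points and `E` a nonzero normed space. -/
def IsVectorC (X : Type u) [NormedAddCommGroup X] [NormedSpace ℝ X] : Prop :=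
  ∃ (K : Type v) (E : Type w) (_ : MetricSpace K) (_ : CompactSpace K) (_ : Nonempty K)
    (_ : NormedAddCommGroup E) (_ : NormedSpace ℝ E) (_ : Nontrivial E),
    (∀ (s : K) (δ : ℝ), 0 < δ → ∃ r, r ≠ s ∧ dist r s < δ) ∧ Nonempty (X ≃ₗᵢ[ℝ] C(K, E))

variable {X : Type u} {Y : Type x} [NormedAddCommGroup X] [NormedSpace ℝ X] [NormedAddCommGroup Y]
  [NormedSpace ℝ Y]

/-- The ambient map of a map of the unit spheres. -/
theorem exists_ambient (f : sphere (0 : X) 1 → sphere (0 : Y) 1) (hf : Isometry f)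
    (hs : Function.Surjective f) :
    ∃ g : X → Y, IsSphereIso g ∧ ∀ x : sphere (0 : X) 1, g x = f x := by
  classical
  have hmemX : ∀ a : X, ‖a‖ = 1 → a ∈ sphere (0 : X) 1 := fun a ha => by simpa using ha
  have hmemY : ∀ y : Y, ‖y‖ = 1 → y ∈ sphere (0 : Y) 1 := fun y hy => by simpa using hy
  have hnormX : ∀ a : sphere (0 : X) 1, ‖(a : X)‖ = 1 := fun a => by simpa using a.2
  have hnormY : ∀ y : sphere (0 : Y) 1, ‖(y : Y)‖ = 1 := fun y => by simpa using y.2
  let g : X → Y := fun a => if h : ‖a‖ = 1 then (f ⟨a, hmemX a h⟩ : Y) else 0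
  have hgv : ∀ a (h : ‖a‖ = 1), g a = f ⟨a, hmemX a h⟩ := fun a h => by simp [g, h]
  have hfdist : ∀ a b : sphere (0 : X) 1, ‖(f a : Y) - f b‖ = ‖(a : X) - b‖ := by
    intro a b
    have := hf.dist_eq a b
    simpa [Subtype.dist_eq, dist_eq_norm] using this
  refine ⟨g, ⟨fun a ha => ?_, fun a b ha hb => ?_, fun y hy => ?_⟩, fun x => ?_⟩
  · rw [hgv a ha]; exact hnormY _
  · rw [hgv a ha, hgv b hb, hfdist]
  · obtain ⟨a, ha⟩ := hs ⟨y, hmemY y hy⟩
    refine ⟨a, hnormX a, ?_⟩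
    rw [hgv a (hnormX a)]
    simp [ha]
  · rw [hgv x (hnormX x)]

/-- `C(K, E)` as the source, for total maps. -/
theorem extends_total_source (hX : IsVectorC.{u, v, w} X) {g : X → Y} (hg : IsSphereIso g) :
    ∃ T : X ≃ₗᵢ[ℝ] Y, ∀ x, ‖x‖ = 1 → T x = g x := by
  obtain ⟨K, E, _, _, _, _, _, _, hK, ⟨e⟩⟩ := hX
  have hF : IsSphereIso (fun c : C(K, E) => g (e.symm c)) := by
    refine ⟨fun c hc => hg.norm_eq _ (by rwa [e.symm.norm_map]), fun c c' hc hc' => ?_,
      fun y hy => ?_⟩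
    · rw [hg.iso _ _ (by rwa [e.symm.norm_map]) (by rwa [e.symm.norm_map]), ← map_sub,
        e.symm.norm_map]
    · obtain ⟨a, ha, hga⟩ := hg.surj y hy
      exact ⟨e a, by rwa [e.norm_map], by simpa using hga⟩
  obtain ⟨T, hT⟩ := main hK hF
  refine ⟨e.trans T, fun x hx => ?_⟩
  have h1 := hT (e x) (by rwa [e.norm_map])
  simpa using h1

/-- `C(K, E)` as the target, for total maps. -/
theorem extends_total_target (hY : IsVectorC.{x, v, w} Y) {g : X → Y} (hg : IsSphereIso g) :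
    ∃ T : X ≃ₗᵢ[ℝ] Y, ∀ x, ‖x‖ = 1 → T x = g x := by
  obtain ⟨g', hg'⟩ := hg.exists_inv
  have hgf : ∀ x : X, ‖x‖ = 1 → g' (g x) = x := by
    intro x hx
    obtain ⟨h1, h2⟩ := hg' (g x) (hg.norm_eq x hx)
    have h3 := hg.iso _ _ h1 hx
    rw [h2, sub_self, norm_zero] at h3
    exact sub_eq_zero.1 (norm_eq_zero.1 h3.symm)
  have hgs : IsSphereIso g' := by
    refine ⟨fun y hy => (hg' y hy).1, fun y y' hy hy' => ?_, fun x hx => ?_⟩
    · rw [← hg.iso _ _ (hg' y hy).1 (hg' y' hy').1, (hg' y hy).2, (hg' y' hy').2]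
    · exact ⟨g x, hg.norm_eq x hx, hgf x hx⟩
  obtain ⟨T, hT⟩ := extends_total_source hY hgs
  refine ⟨T.symm, fun x hx => ?_⟩
  rw [LinearIsometryEquiv.symm_apply_eq, hT _ (hg.norm_eq x hx), hgf x hx]

/-- **Sphere form, source.** -/
theorem extends_sphere_source (hX : IsVectorC.{u, v, w} X)
    (f : sphere (0 : X) 1 → sphere (0 : Y) 1) (hf : Isometry f) (hs : Function.Surjective f) :
    ∃ T : X ≃ₗᵢ[ℝ] Y, ∀ x : sphere (0 : X) 1, T x = f x := by
  obtain ⟨g, hg, hgf⟩ := exists_ambient f hf hs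
  obtain ⟨T, hT⟩ := extends_total_source hX hg
  exact ⟨T, fun x => by rw [hT _ (by simpa using x.2), hgf]⟩

/-- **Sphere form, target.** -/
theorem extends_sphere_target (hY : IsVectorC.{x, v, w} Y)
    (f : sphere (0 : X) 1 → sphere (0 : Y) 1) (hf : Isometry f) (hs : Function.Surjective f) :
    ∃ T : X ≃ₗᵢ[ℝ] Y, ∀ x : sphere (0 : X) 1, T x = f x := by
  obtain ⟨g, hg, hgf⟩ := exists_ambient f hf hs
  obtain ⟨T, hT⟩ := extends_total_target hY hg
  exact ⟨T, fun x => by rw [hT _ (by simpa using x.2), hgf]⟩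

end Vale.Agent.Lib.P084.CKE
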